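import Vale.Agent.P202.Final

open IsLocalRing Vale.Agent.P202

/-- Let `(R, m) → (S, n)` be a flat local homomorphism of Noetherian local rings, `dim R = d`,
and let the closed fibre `S / m S` have finite length `l`.  Let `b` be the Loewy length of the
fibre (the least `b` with `n ^ b ⊆ m S`); then `1 ≤ b ≤ l`.

If `dim S = d`, then
* `n ^ k ⊆ m ^ p S` with `p ≥ 1` implies `p ^ d * l * e(R) ≤ k ^ d * e(S)`; so Lech's inequality
  `e(R) ≤ e(S)` holds when `k ^ d ≤ p ^ d * l` (for instance when `l ≥ b ^ d`);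
* if `α ≥ 0` is such that for each `ε > 0` there are `p ≥ 1` and `k ≤ (α + ε) p` with
  `n ^ k ⊆ m ^ p S`, then `l * e(R) ≤ α ^ d * e(S)`;
* `e(R) ≤ b ^ (d - 1) * e(S)` if `d ≥ 1`.

If `y` is a list of elements of `m`, `J = (y) S`, and the local ring `T = S / J` has dimension
`r = d - length y`, then
* `n ^ k ⊆ m ^ p S + J` with `p ≥ 1` implies `p ^ r * l * e(R) ≤ k ^ r * e(T)`;
* `e(R) ≤ b ^ (r - 1) * e(T)` if `r ≥ 1`; in particular `e(R) ≤ e(T)` if `r = 1`. -/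
theorem Vale.Agent.Results.P202.LoewyBound.result.{u, v} (R : Type u) (S : Type v)
    [CommRing R] [CommRing S] [IsLocalRing R] [IsLocalRing S]
    [IsNoetherianRing R] [IsNoetherianRing S] [Algebra R S] [IsLocalHom (algebraMap R S)]
    [Module.Flat R S] (d l : ℕ) (eR : ℝ) (hR : IsMultiplicity R d eR)
    (hl : Module.length S (S ⧸ (maximalIdeal R).map (algebraMap R S)) = (l : ℕ∞)) :
    ∃ b : ℕ, 1 ≤ b ∧ b ≤ l ∧
      maximalIdeal S ^ b ≤ (maximalIdeal R).map (algebraMap R S) ∧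
      (∀ a : ℕ, maximalIdeal S ^ a ≤ (maximalIdeal R).map (algebraMap R S) → b ≤ a) ∧
      (∀ eS : ℝ, IsMultiplicity S d eS →
        (∀ k p : ℕ, 1 ≤ p → maximalIdeal S ^ k ≤ (maximalIdeal R ^ p).map (algebraMap R S) →
          (p : ℝ) ^ d * l * eR ≤ (k : ℝ) ^ d * eS ∧ (k ^ d ≤ p ^ d * l → eR ≤ eS)) ∧
        (∀ α : ℝ, 0 ≤ α →
          (∀ ε : ℝ, 0 < ε → ∃ k p : ℕ, 1 ≤ p ∧ (k : ℝ) ≤ (α + ε) * p ∧
            maximalIdeal S ^ k ≤ (maximalIdeal R ^ p).map (algebraMap R S)) →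
          (l : ℝ) * eR ≤ α ^ d * eS) ∧
        (1 ≤ d → eR ≤ (b : ℝ) ^ (d - 1) * eS)) ∧
      (∀ (y : List R) (r : ℕ), (∀ z ∈ y, z ∈ maximalIdeal R) → d = r + y.length →
        ∀ [IsLocalRing (S ⧸ (Ideal.ofList y).map (algebraMap R S))] (eT : ℝ),
        IsMultiplicity (S ⧸ (Ideal.ofList y).map (algebraMap R S)) r eT →
        (∀ k p : ℕ, 1 ≤ p →
          maximalIdeal S ^ k ≤ (maximalIdeal R ^ p).map (algebraMap R S) ⊔
            (Ideal.ofList y).map (algebraMap R S) →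
          (p : ℝ) ^ r * l * eR ≤ (k : ℝ) ^ r * eT) ∧
        (1 ≤ r → eR ≤ (b : ℝ) ^ (r - 1) * eT)) := by
  obtain ⟨b, hb1, hbl, hb, hmin⟩ := exists_loewy (R := R) (S := S) l hl
  refine ⟨b, hb1, hbl, hb, hmin, ?_, ?_⟩
  · intro eS hS
    refine ⟨fun k p hp h => ⟨key hR hS l k p hl hp h, fun hle =>
      lech_of_le (hb1.trans hbl) hp (mult_nonneg hS) (key hR hS l k p hl hp h) hle⟩,
      fun α hα h => limit_form hR hS l hl α hα h, fun hd => ?_⟩
    exact cancel hb1 hbl hd (mult_nonneg hR) (key hR hS l b 1 hl le_rfl (by simpa using hb))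
  · intro y r hy hd _ eT hT
    subst hd
    refine ⟨fun k p hp h => key_quot y hy hR hT l k p hl hp h, fun hr => ?_⟩
    refine cancel hb1 hbl hr (mult_nonneg hR) (key_quot y hy hR hT l b 1 hl le_rfl ?_)
    rw [pow_one]
    exact hb.trans le_sup_left
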