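import Vale.Agent.P202.SocMult

open IsLocalRing Vale.Agent.P202

/-- Let `(R, m) → (S, n)` be a flat local homomorphism of Noetherian local rings whose closed
fibre `S / m S` has finite length `l`, and let `b` be the Loewy length of the fibre (the least
`b` with `n ^ b ⊆ m S`). Then `1 ≤ b ≤ l`, and `l = b` exactly when the maximal ideal of the
fibre is principal. If `l ≠ b`, then

* every `y` with `n y ⊆ m S` (a socle element of the fibre) satisfies `n y ⊆ m n`;
* `n ^ b ⊆ m n` and `n ^ ((b - 1) t + 1) ⊆ m ^ t S` for all `t`;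
* if `dim R = dim S = d`, then `l e(R) ≤ (b - 1) ^ d e(S)`; so `e(R) ≤ e(S)` when
  `(b - 1) ^ d ≤ l`, and `e(S) = l e(R)` when `n ^ 2 ⊆ m S`;
* if `y` is a list of elements of `m` and `T = S / (y) S` is a local ring of dimension
  `r = dim R - length y`, then `l e(R) ≤ (b - 1) ^ r e(T)`. -/
theorem Vale.Agent.Results.P202.SocleBound.result.{u, v} (R : Type u) (S : Type v)
    [CommRing R] [CommRing S] [IsLocalRing R] [IsLocalRing S]
    [IsNoetherianRing R] [IsNoetherianRing S] [Algebra R S] [IsLocalHom (algebraMap R S)]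
    [Module.Flat R S] (l : ℕ)
    (hl : Module.length S (S ⧸ (maximalIdeal R).map (algebraMap R S)) = (l : ℕ∞)) :
    ∃ b : ℕ, 1 ≤ b ∧ b ≤ l ∧
      maximalIdeal S ^ b ≤ (maximalIdeal R).map (algebraMap R S) ∧
      (∀ a : ℕ, maximalIdeal S ^ a ≤ (maximalIdeal R).map (algebraMap R S) → b ≤ a) ∧
      ((∃ x ∈ maximalIdeal S, maximalIdeal S ≤
        Ideal.span {x} ⊔ (maximalIdeal R).map (algebraMap R S)) → l = b) ∧
      (l ≠ b →
        (∀ y : S, (∀ z ∈ maximalIdeal S, z * y ∈ (maximalIdeal R).map (algebraMap R S)) →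
          ∀ x ∈ maximalIdeal S,
            x * y ∈ (maximalIdeal R).map (algebraMap R S) * maximalIdeal S) ∧
        maximalIdeal S ^ b ≤ (maximalIdeal R).map (algebraMap R S) * maximalIdeal S ∧
        (∀ t : ℕ, maximalIdeal S ^ ((b - 1) * t + 1) ≤
          (maximalIdeal R ^ t).map (algebraMap R S)) ∧
        (∀ (d : ℕ) (eR eS : ℝ), IsMultiplicity R d eR → IsMultiplicity S d eS →
          (l : ℝ) * eR ≤ ((b - 1 : ℕ) : ℝ) ^ d * eS ∧
          ((b - 1) ^ d ≤ l → eR ≤ eS) ∧
          (maximalIdeal S ^ 2 ≤ (maximalIdeal R).map (algebraMap R S) → eS = l * eR)) ∧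
        (∀ (y : List R) (r : ℕ) (eR : ℝ), (∀ z ∈ y, z ∈ maximalIdeal R) →
          IsMultiplicity R (r + y.length) eR →
          ∀ [IsLocalRing (S ⧸ (Ideal.ofList y).map (algebraMap R S))] (eT : ℝ),
          IsMultiplicity (S ⧸ (Ideal.ofList y).map (algebraMap R S)) r eT →
          (l : ℝ) * eR ≤ ((b - 1 : ℕ) : ℝ) ^ r * eT)) := by
  obtain ⟨b, hb1, hbl, hb, hmin⟩ := exists_loewy (R := R) (S := S) l hl
  have hprin : (∃ x ∈ maximalIdeal S, maximalIdeal S ≤
      Ideal.span {x} ⊔ (maximalIdeal R).map (algebraMap R S)) → l = b := by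
    rintro ⟨x, hx, h⟩
    have h1 := length_le_of_principal (R := R) x hx h b
    rw [sup_eq_right.mpr hb, hl] at h1
    exact le_antisymm (by exact_mod_cast h1) hbl
  refine ⟨b, hb1, hbl, hb, hmin, hprin, fun hne => ?_⟩
  have hF : ∀ x ∈ maximalIdeal S, ¬ maximalIdeal S ≤
      Ideal.span {x} ⊔ (maximalIdeal R).map (algebraMap R S) :=
    fun x hx h => hne (hprin ⟨x, hx, h⟩)
  obtain ⟨a, rfl⟩ : ∃ a, b = a + 1 := ⟨b - 1, by omega⟩
  simp only [Nat.add_sub_cancel]
  refine ⟨fun y hy x hx => soc_mem hF y hy x hx, pow_le_mul hF a hb, pow_le_map hF a hb, ?_, ?_⟩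
  · intro d eR eS hR hS
    have h1 := soc_mult hR hS l hl hF a hb
    refine ⟨h1, fun hle => ?_, fun h2 => ?_⟩
    · exact lech_of_le (l := l) (k := a) (p := 1) (hb1.trans hbl) le_rfl (mult_nonneg hS)
        (by simpa using h1) (by simpa using hle)
    · have h3 := soc_mult hR hS l hl hF 1 h2
      simp only [Nat.cast_one, one_pow, one_mul] at h3
      exact le_antisymm (mult_le hR hS l hl) h3
  · intro y r eR hy hR _ eT hT
    exact soc_quot y hy hR hT l hl hF a hb
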