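import Vale.Agent.P202.All

open IsLocalRing Vale.Agent.P202

/-- Let `(R, m) → (S, n)` be a flat local homomorphism of Noetherian local rings, `dim R = d`,
and let the closed fibre `F = S / m S` have finite length `l` and Loewy length `b` (the least `b`
with `n ^ b ⊆ m S`); then `1 ≤ b ≤ l`.  Say that `F` is principal if its maximal ideal is.

If `dim S = d`, then
* `e(S) ≤ l * e(R)`;
* `n ^ k ⊆ m ^ p S` with `p ≥ 1` implies `p ^ d * l * e(R) ≤ k ^ d * e(S)`; so Lech's inequality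
  `e(R) ≤ e(S)` holds when `k ^ d ≤ p ^ d * l`;
* if `α ≥ 0` is such that for each `ε > 0` there are `p ≥ 1` and `k ≤ (α + ε) p` with
  `n ^ k ⊆ m ^ p S`, then `l * e(R) ≤ α ^ d * e(S)`;
* `e(R) ≤ b ^ (d - 1) * e(S)` if `d ≥ 1`;
* if `F` is not principal, then `l * e(R) ≤ (b - 1) ^ d * e(S)`, hence `e(R) ≤ e(S)` when
  `(b - 1) ^ d ≤ l`, and `e(S) = l * e(R)` when `b ≤ 2`;
* if `x₁, x₂ ∈ n` behave like a regular sequence in degrees `≤ c` of `F` (for instance if `F` has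
  embedding dimension at least two and all relations of its associated graded ring have degree
  `> c`) and `c ≤ b`, then `l * e(R) ≤ (b - c) ^ d * e(S)`, hence `e(R) ≤ e(S)` when
  `(b - c) ^ d ≤ l`, and `e(S) = l * e(R)` when `b ≤ c + 1`.

If `y` is a list of elements of `m`, `J = (y) S`, and the local ring `T = S / J` has dimension
`r = d - length y`, then
* `n ^ k ⊆ m ^ p S + J` with `p ≥ 1` implies `p ^ r * l * e(R) ≤ k ^ r * e(T)`;
* `e(R) ≤ b ^ (r - 1) * e(T)` if `r ≥ 1`; in particular `e(R) ≤ e(T)` if `r = 1`;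
* if `F` is not principal, then `l * e(R) ≤ (b - 1) ^ r * e(T)`;
* with `x₁, x₂, c` as above, `l * e(R) ≤ (b - c) ^ r * e(T)`. -/
theorem Vale.Agent.Results.P202.SpreadBound.result.{u, v} (R : Type u) (S : Type v)
    [CommRing R] [CommRing S] [IsLocalRing R] [IsLocalRing S]
    [IsNoetherianRing R] [IsNoetherianRing S] [Algebra R S] [IsLocalHom (algebraMap R S)]
    [Module.Flat R S] (d l : ℕ) (eR : ℝ) (hR : IsMultiplicity R d eR)
    (hl : Module.length S (S ⧸ (maximalIdeal R).map (algebraMap R S)) = (l : ℕ∞)) :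
    ∃ b : ℕ, 1 ≤ b ∧ b ≤ l ∧
      maximalIdeal S ^ b ≤ (maximalIdeal R).map (algebraMap R S) ∧
      (∀ a : ℕ, maximalIdeal S ^ a ≤ (maximalIdeal R).map (algebraMap R S) → b ≤ a) ∧
      (∀ eS : ℝ, IsMultiplicity S d eS →
        eS ≤ l * eR ∧
        (∀ k p : ℕ, 1 ≤ p → maximalIdeal S ^ k ≤ (maximalIdeal R ^ p).map (algebraMap R S) →
          (p : ℝ) ^ d * l * eR ≤ (k : ℝ) ^ d * eS ∧ (k ^ d ≤ p ^ d * l → eR ≤ eS)) ∧
        (∀ α : ℝ, 0 ≤ α →
          (∀ ε : ℝ, 0 < ε → ∃ k p : ℕ, 1 ≤ p ∧ (k : ℝ) ≤ (α + ε) * p ∧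
            maximalIdeal S ^ k ≤ (maximalIdeal R ^ p).map (algebraMap R S)) →
          (l : ℝ) * eR ≤ α ^ d * eS) ∧
        (1 ≤ d → eR ≤ (b : ℝ) ^ (d - 1) * eS) ∧
        ((∀ x ∈ maximalIdeal S, ¬ maximalIdeal S ≤
            Ideal.span {x} ⊔ (maximalIdeal R).map (algebraMap R S)) →
          (l : ℝ) * eR ≤ ((b : ℝ) - 1) ^ d * eS ∧ ((b - 1) ^ d ≤ l → eR ≤ eS) ∧
            (b ≤ 2 → eS = l * eR)) ∧
        (∀ (x₁ x₂ : S) (c : ℕ), x₁ ∈ maximalIdeal S → x₂ ∈ maximalIdeal S → c ≤ b →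
          RegularBelow ((maximalIdeal R).map (algebraMap R S)) x₁ x₂ (c + 1) →
          (l : ℝ) * eR ≤ ((b : ℝ) - c) ^ d * eS ∧ ((b - c) ^ d ≤ l → eR ≤ eS) ∧
          (b ≤ c + 1 → eS = l * eR))) ∧
      (∀ (y : List R) (r : ℕ), (∀ z ∈ y, z ∈ maximalIdeal R) → d = r + y.length →
        ∀ [IsLocalRing (S ⧸ (Ideal.ofList y).map (algebraMap R S))] (eT : ℝ),
        IsMultiplicity (S ⧸ (Ideal.ofList y).map (algebraMap R S)) r eT →
        (∀ k p : ℕ, 1 ≤ p →
          maximalIdeal S ^ k ≤ (maximalIdeal R ^ p).map (algebraMap R S) ⊔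
            (Ideal.ofList y).map (algebraMap R S) →
          (p : ℝ) ^ r * l * eR ≤ (k : ℝ) ^ r * eT) ∧
        (1 ≤ r → eR ≤ (b : ℝ) ^ (r - 1) * eT) ∧
        ((∀ x ∈ maximalIdeal S, ¬ maximalIdeal S ≤
            Ideal.span {x} ⊔ (maximalIdeal R).map (algebraMap R S)) →
          (l : ℝ) * eR ≤ ((b : ℝ) - 1) ^ r * eT) ∧
        (∀ (x₁ x₂ : S) (c : ℕ), x₁ ∈ maximalIdeal S → x₂ ∈ maximalIdeal S → c ≤ b →
          RegularBelow ((maximalIdeal R).map (algebraMap R S)) x₁ x₂ (c + 1) →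
          (l : ℝ) * eR ≤ ((b : ℝ) - c) ^ r * eT)) := by
  obtain ⟨b, hb1, hbl, hb, hmin⟩ := exists_loewy (R := R) (S := S) l hl
  refine ⟨b, hb1, hbl, hb, hmin, ?_, ?_⟩
  · intro eS hS
    refine ⟨upper hR hS l hl, fun k p hp h => ⟨key hR hS l k p hl hp h, fun hle =>
      lech_of_le (hb1.trans hbl) hp (mult_nonneg hS) (key hR hS l k p hl hp h) hle⟩,
      fun α hα h => limit_form hR hS l hl α hα h, fun hd => ?_, fun hF => ?_,
      fun x₁ x₂ c h1 h2 hc hreg => ?_⟩
    · exact cancel hb1 hbl hd (mult_nonneg hR) (key hR hS l b 1 hl le_rfl (by simpa using hb))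
    · obtain ⟨a, rfl⟩ : ∃ a, b = a + 1 := ⟨b - 1, by omega⟩
      have h2 := two_le hF hb1 hb
      have h3 := socle_bound hR hS l hl hF a hb
      have h4 : (((a + 1 : ℕ) : ℝ) - 1) = a := by push_cast; ring
      rw [h4]
      refine ⟨h3, fun hle => ?_, fun hle => ?_⟩
      · refine lech_of_le (d := d) (l := l) (k := a) (p := 1) (hb1.trans hbl) le_rfl
          (mult_nonneg hS) (by simpa using h3) ?_
        simpa using hle
      · have ha : a = 1 := by omega
        subst ha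
        refine le_antisymm (upper hR hS l hl) ?_
        simpa using h3
    · have h3 := spread_bound hR hS l hl h1 h2 hreg b hc hb
      have hcast : ((b - c : ℕ) : ℝ) = (b : ℝ) - c := by push_cast [hc]; ring
      refine ⟨by rwa [hcast] at h3, fun hle => ?_, fun hle => ?_⟩
      · refine lech_of_le (d := d) (l := l) (k := b - c) (p := 1) (hb1.trans hbl) le_rfl
          (mult_nonneg hS) (by simpa using h3) ?_
        simpa using hle
      · refine le_antisymm (upper hR hS l hl) (h3.trans ?_)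
        have h4 : ((b - c : ℕ) : ℝ) ≤ 1 := by
          have : b - c ≤ 1 := by omega
          exact_mod_cast this
        have h5 : ((b - c : ℕ) : ℝ) ^ d ≤ 1 := pow_le_one₀ (by positivity) h4
        calc ((b - c : ℕ) : ℝ) ^ d * eS ≤ 1 * eS :=
              mul_le_mul_of_nonneg_right h5 (mult_nonneg hS)
          _ = eS := one_mul _
  · intro y r hy hd _ eT hT
    subst hd
    refine ⟨fun k p hp h => key_quot y hy hR hT l k p hl hp h, fun hr => ?_, fun hF => ?_,
      fun x₁ x₂ c h1 h2 hc hreg => ?_⟩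
    · refine cancel hb1 hbl hr (mult_nonneg hR) (key_quot y hy hR hT l b 1 hl le_rfl ?_)
      rw [pow_one]
      exact hb.trans le_sup_left
    · obtain ⟨a, rfl⟩ : ∃ a, b = a + 1 := ⟨b - 1, by omega⟩
      have h4 : (((a + 1 : ℕ) : ℝ) - 1) = a := by push_cast; ring
      rw [h4]
      exact socle_bound_quot y hy hR hT l hl hF a hb
    · have h3 := spread_bound_quot y hy hR hT l hl h1 h2 hreg b hc hb
      have hcast : ((b - c : ℕ) : ℝ) = (b : ℝ) - c := by push_cast [hc]; ring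
      rwa [hcast] at h3
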